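import Vale.Agent.P032.H696.Line

/-!
# P032: the key lemma for a silent colour

`Irr.key696`, `Irr.key_dir696`, `Irr.key_dir_mn696`, see `Line.lean`; `Irr.excl696`: near a point
with minimal palette every colour of the palette has points which are in no other set `U j` of the
palette.
-/

open Set Filter Topology Metric

noncomputable section

namespace Vale.Agent.P032.Six

variable {k : ℕ} {U : Fin k → Set ℂ} {T : ℂ → Set (Fin k)}

theorem dist_ray_sq696 {z m u : ℂ} (hm : ‖m‖ = 1) (r : ℝ) :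
    dist (z + r * u) (z + m) ^ 2 = 1 - 2 * r * ip u m + r ^ 2 * ‖u‖ ^ 2 := by
  have h1 : m.re ^ 2 + m.im ^ 2 = 1 := by
    have h2 := Complex.sq_norm m
    rw [hm, Complex.normSq_apply] at h2
    nlinarith
  have h3 : ‖u‖ ^ 2 = u.re ^ 2 + u.im ^ 2 := by
    rw [Complex.sq_norm, Complex.normSq_apply]; ring
  rw [sq_dist, h3]
  unfold ip
  simp only [Complex.add_re, Complex.add_im, Complex.mul_re, Complex.mul_im, Complex.ofReal_re,
    Complex.ofReal_im]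
  linear_combination h1

/-- a circle about a point near `z + m` which has `z` outside crosses every ray on the side of `m` -/
theorem cross_out696 {z m u : ℂ} (hm : ‖m‖ = 1) (hu : 0 < ip u m) {δ : ℝ} (hδ : 0 < δ) :
    ∀ᶠ q in 𝓝 (z + m), 1 < dist z q → ∃ r : ℝ, 0 < r ∧ r < δ ∧ dist (z + r * u) q = 1 := by
  -- a point of the ray inside the circle about `z + m`
  obtain ⟨ρ, hρ0, hρδ, hρ⟩ : ∃ ρ : ℝ, 0 < ρ ∧ ρ < δ ∧ dist (z + ρ * u) (z + m) < 1 := by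
    refine ⟨min (δ / 2) (ip u m / (‖u‖ ^ 2 + 1)), by positivity,
      lt_of_le_of_lt (min_le_left _ _) (by linarith), ?_⟩
    set ρ := min (δ / 2) (ip u m / (‖u‖ ^ 2 + 1)) with hρ
    have h0 : 0 < ρ := by positivity
    have h1 : ρ * (‖u‖ ^ 2 + 1) ≤ ip u m := by
      have := min_le_right (δ / 2) (ip u m / (‖u‖ ^ 2 + 1))
      rw [← hρ] at this
      rwa [le_div_iff₀ (by positivity)] at this
    have h2 := dist_ray_sq696 (z := z) (u := u) hm ρ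
    have h3 := dist_nonneg (x := z + ρ * u) (y := z + m)
    have h4 : ρ ^ 2 * ‖u‖ ^ 2 < 2 * ρ * ip u m := by
      have h5 : ρ * (ρ * (‖u‖ ^ 2 + 1)) ≤ ρ * ip u m := mul_le_mul_of_nonneg_left h1 h0.le
      nlinarith [mul_pos h0 hu]
    nlinarith
  have h1 : ∀ᶠ q in 𝓝 (z + m), dist (z + ρ * u) q < 1 := by
    have hc : Continuous fun q : ℂ => dist (z + ρ * u) q := by fun_prop
    exact hc.tendsto (z + m) |>.eventually (gt_mem_nhds hρ)
  filter_upwards [h1] with q hq hzq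
  have hc : ContinuousOn (fun r : ℝ => dist (z + r * u) q) (Icc 0 ρ) := by fun_prop
  have h2 : (1 : ℝ) ∈ Ioo (dist (z + (ρ : ℝ) * u) q) (dist (z + ((0 : ℝ) : ℂ) * u) q) := by
    refine ⟨hq, ?_⟩
    simpa using hzq
  obtain ⟨r, hr, hr1⟩ := intermediate_value_Ioo' hρ0.le hc h2
  exact ⟨r, hr.1, hr.2.trans hρδ, hr1⟩

/-- a circle about a point near `z + m` which has `z` inside crosses every ray on the side of `-m` -/
theorem cross_in696 {z m v : ℂ} (hm : ‖m‖ = 1) (hv : ip v m < 0) {δ : ℝ} (hδ : 0 < δ) :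
    ∀ᶠ q in 𝓝 (z + m), dist z q < 1 → ∃ r : ℝ, 0 < r ∧ r < δ ∧ dist (z + r * v) q = 1 := by
  obtain ⟨ρ, hρ0, hρδ, hρ⟩ : ∃ ρ : ℝ, 0 < ρ ∧ ρ < δ ∧ 1 < dist (z + ρ * v) (z + m) := by
    refine ⟨δ / 2, by positivity, by linarith, ?_⟩
    have h2 := dist_ray_sq696 (z := z) (u := v) hm (δ / 2)
    have h3 := dist_nonneg (x := z + ((δ / 2 : ℝ) : ℂ) * v) (y := z + m)
    have h4 : 0 < (δ / 2) * (-ip v m) := mul_pos (by linarith) (by linarith)
    have h5 : 0 ≤ (δ / 2) ^ 2 * ‖v‖ ^ 2 := by positivity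
    nlinarith
  have h1 : ∀ᶠ q in 𝓝 (z + m), 1 < dist (z + ρ * v) q := by
    have hc : Continuous fun q : ℂ => dist (z + ρ * v) q := by fun_prop
    exact hc.tendsto (z + m) |>.eventually (lt_mem_nhds hρ)
  filter_upwards [h1] with q hq hzq
  have hc : ContinuousOn (fun r : ℝ => dist (z + r * v) q) (Icc 0 ρ) := by fun_prop
  have h2 : (1 : ℝ) ∈ Ioo (dist (z + ((0 : ℝ) : ℂ) * v) q) (dist (z + (ρ : ℝ) * v) q) := by
    refine ⟨?_, hq⟩
    simpa using hzq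
  obtain ⟨r, hr, hr1⟩ := intermediate_value_Ioo hρ0.le hc h2
  exact ⟨r, hr.1, hr.2.trans hρδ, hr1⟩

/-- points of two different rays are different -/
theorem ray_ne696 {z u v : ℂ} (huv : cr u v ≠ 0) {r r' : ℝ} (hr : 0 < r) (hr' : 0 < r') :
    z + r * u ≠ z + r' * v := by
  intro h
  have h1 : (r : ℂ) * u = r' * v := by linear_combination h
  have h2 := congrArg Complex.re h1
  have h3 := congrArg Complex.im h1
  simp only [Complex.mul_re, Complex.mul_im, Complex.ofReal_re, Complex.ofReal_im] at h2 h3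
  apply huv
  have h4 : r * r' * cr u v = 0 := by
    unfold cr
    linear_combination (r' * v.im) * h2 - (r' * v.re) * h3
  rcases mul_eq_zero.1 h4 with h5 | h5
  · rcases mul_eq_zero.1 h5 with h6 | h6 <;> linarith
  · exact h5

/-- the data of the key lemma at one side -/
theorem Irr.key_side696 (h : Irr U T) {z m : ℂ} {g s h1 h2 : Fin k} (hm : ‖m‖ = 1)
    (hp : T (z + m) ⊆ {g, h1}) (hn : T (z - m) ⊆ {g, h2}) (hg : g ∈ Pal U z)
    {u u' v v' : ℂ} (hu : 0 < ip u m) (hu' : 0 < ip u' m) (huu : cr u u' ≠ 0)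
    (hv : ip v m < 0) (hv' : ip v' m < 0) (hvv : cr v v' ≠ 0)
    (ru : ∀ᶠ r : ℝ in 𝓝[>] 0, T (z + r * u) ⊆ {g, s})
    (ru' : ∀ᶠ r : ℝ in 𝓝[>] 0, T (z + r * u') ⊆ {g, s})
    (rv : ∀ᶠ r : ℝ in 𝓝[>] 0, T (z + r * v) ⊆ {g, s})
    (rv' : ∀ᶠ r : ℝ in 𝓝[>] 0, T (z + r * v') ⊆ {g, s}) :
    ∃ ε > 0, ∀ w, w ≠ z → dist w z < ε → ∀ q, dist w q = 1 → s ∈ Pal U q →
      dist q (z + m) < ε → h1 ∉ Pal U w ∧ h2 ∉ Pal U w := by
  obtain ⟨ε1, hε1, hL1⟩ := h.lr696 hm hp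
  have hm' : ‖-m‖ = 1 := by rw [norm_neg, hm]
  obtain ⟨ε2, hε2, hL2⟩ := h.lr_both696 (z := z) (m := -m) (a := g) (b := h2) hm'
    (by rwa [← sub_eq_add_neg])
  -- radii of the rays
  have hrad : ∀ {w : ℂ}, (∀ᶠ r : ℝ in 𝓝[>] 0, T (z + r * w) ⊆ {g, s}) → ∃ δ > 0,
      ∀ r : ℝ, 0 < r → r < δ → T (z + r * w) ⊆ {g, s} := by
    intro w hw
    obtain ⟨δ, hδ, hd⟩ := mem_nhdsGT_iff_exists_Ioo_subset.1 hw
    exact ⟨δ, hδ, fun r h3 h4 => hd ⟨h3, h4⟩⟩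
  obtain ⟨δ1, hδ1, hr1⟩ := hrad ru
  obtain ⟨δ2, hδ2, hr2⟩ := hrad ru'
  obtain ⟨δ3, hδ3, hr3⟩ := hrad rv
  obtain ⟨δ4, hδ4, hr4⟩ := hrad rv'
  set N := 1 + ‖u‖ + ‖u'‖ + ‖v‖ + ‖v'‖ with hN
  have hN0 : 0 < N := by positivity
  set δ := min (min (min δ1 δ2) (min δ3 δ4)) (min ε1 ε2 / N) with hδ
  have hδ0 : 0 < δ := by positivity
  have hd1 : δ ≤ δ1 := (min_le_left _ _).trans ((min_le_left _ _).trans (min_le_left _ _))
  have hd2 : δ ≤ δ2 := (min_le_left _ _).trans ((min_le_left _ _).trans (min_le_right _ _))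
  have hd3 : δ ≤ δ3 := (min_le_left _ _).trans ((min_le_right _ _).trans (min_le_left _ _))
  have hd4 : δ ≤ δ4 := (min_le_left _ _).trans ((min_le_right _ _).trans (min_le_right _ _))
  have hdN : δ * N ≤ min ε1 ε2 := by
    have := min_le_right (min (min δ1 δ2) (min δ3 δ4)) (min ε1 ε2 / N)
    rwa [← hδ, le_div_iff₀ hN0] at this
  have hnear : ∀ {w : ℂ} {r : ℝ}, ‖w‖ ≤ N → 0 < r → r < δ →
      dist (z + r * w) z < min ε1 ε2 := by
    intro w r hw h3 h4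
    rw [dist_eq_norm, add_sub_cancel_left, norm_mul, Complex.norm_real, Real.norm_eq_abs,
      abs_of_pos h3]
    have h5 : r * ‖w‖ ≤ r * N := mul_le_mul_of_nonneg_left hw h3.le
    have h6 : r * N < δ * N := mul_lt_mul_of_pos_right h4 hN0
    linarith
  have nu : ‖u‖ ≤ N := by have := norm_nonneg u'; have := norm_nonneg v; have := norm_nonneg v'; linarith
  have nu' : ‖u'‖ ≤ N := by have := norm_nonneg u; have := norm_nonneg v; have := norm_nonneg v'; linarith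
  have nv : ‖v‖ ≤ N := by have := norm_nonneg u; have := norm_nonneg u'; have := norm_nonneg v'; linarith
  have nv' : ‖v'‖ ≤ N := by have := norm_nonneg u; have := norm_nonneg u'; have := norm_nonneg v; linarith
  -- near `z + m`
  obtain ⟨ε3, hε3, hcr⟩ := Metric.eventually_nhds_iff.1
    (((cross_out696 (z := z) hm hu hδ0).and (cross_out696 (z := z) hm hu' hδ0)).and
      ((cross_in696 (z := z) hm hv hδ0).and (cross_in696 (z := z) hm hv' hδ0)))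
  refine ⟨min ε3 (min ε1 ε2), by positivity, fun w hwz hw q hwq hs hq => ?_⟩
  have hq3 : dist q (z + m) < ε3 := lt_of_lt_of_le hq (min_le_left _ _)
  have hq1 : dist q (z + m) < ε1 :=
    lt_of_lt_of_le hq ((min_le_right _ _).trans (min_le_left _ _))
  have hq2 : dist q (z + m) < ε2 :=
    lt_of_lt_of_le hq ((min_le_right _ _).trans (min_le_right _ _))
  have hw1 : dist w z < ε1 := lt_of_lt_of_le hw ((min_le_right _ _).trans (min_le_left _ _))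
  have hw2 : dist w z < ε2 := lt_of_lt_of_le hw ((min_le_right _ _).trans (min_le_right _ _))
  obtain ⟨⟨c1, c2⟩, c3, c4⟩ := hcr hq3
  -- a second point of the line with the colour `g`
  have hx : ∃ x, x ≠ w ∧ dist x z < min ε1 ε2 ∧ dist x q = 1 ∧ g ∈ Pal U x := by
    -- on the rays
    have hgr : ∀ {x : ℂ}, dist x q = 1 → T x ⊆ {g, s} → g ∈ Pal U x := by
      intro x hxq hxT
      by_contra hcon
      have h3 : T x ⊆ {s} := by
        intro j hj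
        rcases hxT hj with h4 | h4
        · subst h4; exact absurd (h.sub x hj) hcon
        · exact h4
      exact h.mx.notMem' (h.mem_of_single h3) hxq hs
    rcases lt_trichotomy (dist z q) 1 with h3 | h3 | h3
    · obtain ⟨r, hr0, hrδ, hrq⟩ := c3 h3
      obtain ⟨r', hr0', hrδ', hrq'⟩ := c4 h3
      by_cases h4 : z + r * v = w
      · refine ⟨z + r' * v', ?_, hnear nv' hr0' hrδ', hrq',
          hgr hrq' (hr4 r' hr0' (lt_of_lt_of_le hrδ' hd4))⟩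
        rw [← h4]
        exact (ray_ne696 hvv hr0 hr0').symm
      · exact ⟨z + r * v, h4, hnear nv hr0 hrδ, hrq, hgr hrq (hr3 r hr0 (lt_of_lt_of_le hrδ hd3))⟩
    · exact ⟨z, hwz.symm, by rw [dist_self]; positivity, h3, hg⟩
    · obtain ⟨r, hr0, hrδ, hrq⟩ := c1 h3
      obtain ⟨r', hr0', hrδ', hrq'⟩ := c2 h3
      by_cases h4 : z + r * u = w
      · refine ⟨z + r' * u', ?_, hnear nu' hr0' hrδ', hrq',
          hgr hrq' (hr2 r' hr0' (lt_of_lt_of_le hrδ' hd2))⟩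
        rw [← h4]
        exact (ray_ne696 huu hr0 hr0').symm
      · exact ⟨z + r * u, h4, hnear nu hr0 hrδ, hrq, hgr hrq (hr1 r hr0 (lt_of_lt_of_le hrδ hd1))⟩
  obtain ⟨x, hxw, hxz, hxq, hxg⟩ := hx
  have hx1 : dist x z < ε1 := lt_of_lt_of_le hxz (min_le_left _ _)
  have hx2 : dist x z < ε2 := lt_of_lt_of_le hxz (min_le_right _ _)
  refine ⟨fun h3 => hL1 x w q hx1 hw1 hq1 hxw hxq hwq ⟨hxg, h3⟩, fun h3 => ?_⟩
  exact hL2 x w q hx2 hw2 (Or.inr (by rwa [sub_neg_eq_add])) hxw hxq hwq ⟨hxg, h3⟩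

/-- **KEY LEMMA.** -/
theorem Irr.key696 (h : Irr U T) {z m : ℂ} {g s h1 h2 : Fin k} (hm : ‖m‖ = 1)
    (hp : T (z + m) ⊆ {g, h1}) (hn : T (z - m) ⊆ {g, h2}) (hg : g ∈ Pal U z)
    {u u' v v' : ℂ} (hu : 0 < ip u m) (hu' : 0 < ip u' m) (huu : cr u u' ≠ 0)
    (hv : ip v m < 0) (hv' : ip v' m < 0) (hvv : cr v v' ≠ 0)
    (ru : ∀ᶠ r : ℝ in 𝓝[>] 0, T (z + r * u) ⊆ {g, s})
    (ru' : ∀ᶠ r : ℝ in 𝓝[>] 0, T (z + r * u') ⊆ {g, s})
    (rv : ∀ᶠ r : ℝ in 𝓝[>] 0, T (z + r * v) ⊆ {g, s})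
    (rv' : ∀ᶠ r : ℝ in 𝓝[>] 0, T (z + r * v') ⊆ {g, s}) :
    ∃ ε > 0, ∀ w, w ≠ z → dist w z < ε → ∀ q, dist w q = 1 → s ∈ Pal U q →
      (dist q (z + m) < ε ∨ dist q (z - m) < ε) → h1 ∉ Pal U w ∧ h2 ∉ Pal U w := by
  have ipn : ∀ x : ℂ, ip x (-m) = -ip x m := by
    intro x; unfold ip; simp; ring
  obtain ⟨ε, hε, h3⟩ := h.key_side696 hm hp hn hg hu hu' huu hv hv' hvv ru ru' rv rv'
  obtain ⟨ε', hε', h4⟩ := h.key_side696 (z := z) (m := -m) (s := s) (h1 := h2) (h2 := h1)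
    (by rw [norm_neg, hm])
    (by rwa [← sub_eq_add_neg]) (by rwa [sub_neg_eq_add]) hg
    (by rw [ipn]; linarith) (by rw [ipn]; linarith) hvv (by rw [ipn]; linarith)
    (by rw [ipn]; linarith) huu rv rv' ru ru'
  refine ⟨min ε ε', by positivity, fun w hwz hw q hwq hs hq => ?_⟩
  rcases hq with hq | hq
  · exact h3 w hwz (lt_of_lt_of_le hw (min_le_left _ _)) q hwq hs
      (lt_of_lt_of_le hq (min_le_left _ _))
  · have h5 := h4 w hwz (lt_of_lt_of_le hw (min_le_right _ _)) q hwq hs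
      (by rw [← sub_eq_add_neg]; exact lt_of_lt_of_le hq (min_le_right _ _))
    exact ⟨h5.2, h5.1⟩

/-- If the colours `h1`, `h2` occur outside `U s` near `z`, then `z` has an `s`-partner different from
`z + m` and `z - m`. -/
theorem Irr.key_dir696 (h : Irr U T) {z m : ℂ} {g s h1 h2 : Fin k} (hm : ‖m‖ = 1)
    (hp : T (z + m) ⊆ {g, h1}) (hn : T (z - m) ⊆ {g, h2}) (hg : g ∈ Pal U z)
    {u u' v v' : ℂ} (hu : 0 < ip u m) (hu' : 0 < ip u' m) (huu : cr u u' ≠ 0)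
    (hv : ip v m < 0) (hv' : ip v' m < 0) (hvv : cr v v' ≠ 0)
    (ru : ∀ᶠ r : ℝ in 𝓝[>] 0, T (z + r * u) ⊆ {g, s})
    (ru' : ∀ᶠ r : ℝ in 𝓝[>] 0, T (z + r * u') ⊆ {g, s})
    (rv : ∀ᶠ r : ℝ in 𝓝[>] 0, T (z + r * v) ⊆ {g, s})
    (rv' : ∀ᶠ r : ℝ in 𝓝[>] 0, T (z + r * v') ⊆ {g, s})
    (hfr : ∃ᶠ w in 𝓝[≠] z, w ∉ U s ∧ (h1 ∈ Pal U w ∨ h2 ∈ Pal U w)) :
    ∃ y, dist y z = 1 ∧ s ∈ Pal U y ∧ y ≠ z + m ∧ y ≠ z - m := by
  by_contra hcon
  push Not at hcon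
  obtain ⟨ε, hε, hk⟩ := h.key696 hm hp hn hg hu hu' huu hv hv' hvv ru ru' rv rv'
  have hO : ∀ q, dist q z = 1 → s ∈ Pal U q → q ∈ ball (z + m) ε ∪ ball (z - m) ε := by
    intro q hq hsq
    by_cases h3 : q = z + m
    · left; rw [h3]; exact mem_ball_self hε
    · right; rw [hcon q hq hsq h3]; exact mem_ball_self hε
  have hev : ∀ᶠ w in 𝓝[≠] z, (w ∉ U s → ∃ q ∈ ball (z + m) ε ∪ ball (z - m) ε, dist w q = 1 ∧
      s ∈ Pal U q ∧ ∀ w', dist w' q = 1 → w' ∉ U s) ∧ dist w z < ε ∧ w ≠ z := by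
    filter_upwards [mem_nhdsWithin_of_mem_nhds (h.ml_dir696 (isOpen_ball.union isOpen_ball) hO),
      mem_nhdsWithin_of_mem_nhds (ball_mem_nhds z hε), self_mem_nhdsWithin] with w h3 h4 h5
    exact ⟨h3, h4, h5⟩
  obtain ⟨w, ⟨hws, hwh⟩, h3, h4, h5⟩ := (hfr.and_eventually hev).exists
  obtain ⟨q, hqO, hwq, hsq, -⟩ := h3 hws
  obtain ⟨h6, h7⟩ := hk w h5 h4 q hwq hsq hqO
  rcases hwh with h8 | h8
  · exact h6 h8
  · exact h7 h8

/-- near a point with minimal palette every colour of the palette has points which belong to no other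
set of the palette -/
theorem Irr.excl696 (h : Irr U T)
    (hmin : ∀ z, 4 ≤ (T z).ncard → ∀ s, s ⊆ T z → s ≠ T z →
      ¬ ∀ᶠ w in 𝓝 z, ∃ i ∈ s, w ∈ U i ∨ (w ∈ XX U ∧ i ∈ Pal U w)) {z : ℂ}
    (h4 : 4 ≤ (T z).ncard) {i : Fin k} (hi : i ∈ T z) :
    ∃ᶠ w in 𝓝[≠] z, w ∈ U i ∧ ∀ j ∈ T z, j ≠ i → w ∉ U j := by
  have h1 : ¬ ∀ᶠ w in 𝓝 z, ∃ j ∈ T z \ {i}, w ∈ U j ∨ (w ∈ XX U ∧ j ∈ Pal U w) :=
    hmin z h4 _ sdiff_subset fun h2 => by
      have h3 : i ∈ T z \ {i} := by rw [h2]; exact hi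
      exact h3.2 rfl
  have hzX : z ∈ XX U := by
    by_contra hcon
    have h2 : ∀ᶠ w in 𝓝 z, ∃ j ∈ T z \ {i}, w ∈ U j ∨ (w ∈ XX U ∧ j ∈ Pal U w) := by
      obtain ⟨j, hj, hji⟩ : ∃ j ∈ T z, j ≠ i := by
        by_contra hcon2
        push Not at hcon2
        have h3 : (T z).ncard ≤ ({i} : Set (Fin k)).ncard :=
          Set.ncard_le_ncard (fun j hj => hcon2 j hj) (Set.toFinite _)
        rw [Set.ncard_singleton] at h3
        omega
      filter_upwards [(h.mx.isOpen j).mem_nhds (h.off z hcon j hj)] with w hw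
      exact ⟨j, ⟨hj, hji⟩, Or.inl hw⟩
    exact h1 h2
  rw [not_eventually] at h1
  rw [frequently_nhdsWithin_iff]
  refine (h1.and_eventually (h.nhd z)).mono ?_
  intro w ⟨hw, hwT⟩
  push Not at hw
  have hwX : w ∉ XX U := by
    intro hwX
    have h2 : T w ⊆ {i} := by
      intro j hj
      by_contra hji
      exact (hw j ⟨hwT hj, hji⟩).2 hwX (h.sub w hj)
    exact hwX i (h.mem_of_single h2)
  obtain ⟨j, hj⟩ := h.ne w
  have hji : j = i := by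
    by_contra hji
    exact (hw j ⟨hwT hj, hji⟩).1 (h.off w hwX j hj)
  subst hji
  refine ⟨⟨h.off w hwX j hj, fun l hl hlj => (hw l ⟨hl, hlj⟩).1⟩, ?_⟩
  rintro rfl
  exact hwX hzX

/-- **KEY LEMMA**, at a point with minimal palette: `s` has a partner different from `z + m`,
`z - m`. -/
theorem Irr.key_dir_mn696 (h : Irr U T)
    (hmin : ∀ z, 4 ≤ (T z).ncard → ∀ s, s ⊆ T z → s ≠ T z →
      ¬ ∀ᶠ w in 𝓝 z, ∃ i ∈ s, w ∈ U i ∨ (w ∈ XX U ∧ i ∈ Pal U w))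
    {z m : ℂ} (h4 : 4 ≤ (T z).ncard) {g s h1 h2 : Fin k} (hm : ‖m‖ = 1)
    (hp : T (z + m) ⊆ {g, h1}) (hn : T (z - m) ⊆ {g, h2}) (hg : g ∈ T z) (hs : s ∈ T z)
    (h1z : h1 ∈ T z) (h1s : h1 ≠ s)
    {u u' v v' : ℂ} (hu : 0 < ip u m) (hu' : 0 < ip u' m) (huu : cr u u' ≠ 0)
    (hv : ip v m < 0) (hv' : ip v' m < 0) (hvv : cr v v' ≠ 0)
    (ru : ∀ᶠ r : ℝ in 𝓝[>] 0, T (z + r * u) ⊆ {g, s})
    (ru' : ∀ᶠ r : ℝ in 𝓝[>] 0, T (z + r * u') ⊆ {g, s})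
    (rv : ∀ᶠ r : ℝ in 𝓝[>] 0, T (z + r * v) ⊆ {g, s})
    (rv' : ∀ᶠ r : ℝ in 𝓝[>] 0, T (z + r * v') ⊆ {g, s}) :
    ∃ y, dist y z = 1 ∧ s ∈ Pal U y ∧ y ≠ z + m ∧ y ≠ z - m :=
  h.key_dir696 hm hp hn (h.sub z hg) hu hu' huu hv hv' hvv ru ru' rv rv'
    ((h.excl696 hmin h4 h1z).mono fun _ hw =>
      ⟨hw.2 s hs h1s.symm, Or.inl (subset_closure hw.1)⟩)

end Vale.Agent.P032.Six
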