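import Vale.Agent.P032.H429.Types

/-!
# P032: maximality lines, the line rule and the key lemma

`Irr.ml696`: every point outside `U i` lies on a unit circle without points of `U i`, about a point
of colour `i` (a *line* of `i`).  `ml_near696`, `Irr.ml_dir696`: near `z` the centres of the lines of
`i` are near the `i`-partners of `z`.

`Irr.lr696`, `Irr.lr_both696`: the line rule.  If the palette at `z + m` is inside `{a, b}`, then no
line with its centre near `z + m` or near `z - m` has the colours `a` and `b` at two points near `z`.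
`Irr.lr3_696`: three colours.

`Irr.key696`: the key lemma.  `T (z + m) ⊆ {g, h1}`, `T (z - m) ⊆ {g, h2}`, and four rays at `z`, two
on each side of the line perpendicular to `m`, have palettes inside `{g, s}`.  Then a point `w ≠ z`
near `z` on a line of `s` with its centre near `z + m` or `z - m` has neither the colour `h1` nor the
colour `h2`.  `Irr.key_dir696`, `Irr.key_dir_mn696`: so `z` has an `s`-partner different from `z + m`
and `z - m`.
-/

open Set Filter Topology Metric

noncomputable section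

namespace Vale.Agent.P032.Six

variable {k : ℕ} {U : Fin k → Set ℂ} {T : ℂ → Set (Fin k)}

/-- **(ML)** Maximality lines. -/
theorem Irr.ml696 (h : Irr U T) {i : Fin k} {x : ℂ} (hx : x ∉ U i) :
    ∃ q, dist x q = 1 ∧ i ∈ Pal U q ∧ ∀ w, dist w q = 1 → w ∉ U i := by
  have h1 : ∃ q ∈ closure (U i), dist x q = 1 := by
    by_contra hcon
    push Not at hcon
    exact hx (h.max i x hcon)
  obtain ⟨q, hq, hxq⟩ := h1
  exact ⟨q, hxq, hq, fun w hw hwU => h.mx.free i w hwU q hq hw⟩

/-- near `z` the unit circles avoid a closed set which avoids `S(z)` -/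
theorem sphere_avoid696 {z : ℂ} {C : Set ℂ} (hC : IsClosed C) (hz : ∀ q ∈ C, dist q z ≠ 1) :
    ∀ᶠ x in 𝓝 z, ∀ q ∈ C, dist x q ≠ 1 := by
  have hdisj : Disjoint (sphere z (1 : ℝ)) C := by
    rw [Set.disjoint_left]
    intro y hy hyC
    exact hz y hyC hy
  obtain ⟨η, hη, hd⟩ := hdisj.exists_thickenings (isCompact_sphere z 1) hC
  refine Metric.eventually_nhds_iff.2 ⟨η, hη, fun x hx q hq hxq => ?_⟩
  have h1 : z + (q - x) ∈ sphere z (1 : ℝ) := by
    rw [mem_sphere, dist_eq_norm, add_sub_cancel_left, ← dist_eq_norm, dist_comm]; exact hxq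
  have h2 : q ∈ thickening η (sphere z (1 : ℝ)) := by
    rw [mem_thickening_iff]
    refine ⟨z + (q - x), h1, ?_⟩
    rw [dist_eq_norm]
    have : q - (z + (q - x)) = x - z := by ring
    rw [this, ← dist_eq_norm]; exact hx
  exact Set.disjoint_left.1 hd h2 (self_subset_thickening hη _ hq)

/-- near `z` the centres of the lines of `i` are in `O`, if `O` is open and contains the `i`-partners
of `z` -/
theorem ml_near696 (U : Fin k → Set ℂ) {z : ℂ} {i : Fin k} {O : Set ℂ} (hO : IsOpen O)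
    (hsub : ∀ q, dist q z = 1 → i ∈ Pal U q → q ∈ O) :
    ∀ᶠ x in 𝓝 z, ∀ q, dist x q = 1 → i ∈ Pal U q → q ∈ O := by
  have hC : IsClosed (closure (U i) ∩ Oᶜ) := isClosed_closure.inter hO.isClosed_compl
  filter_upwards [sphere_avoid696 hC fun q hq hqz => hq.2 (hsub q hqz hq.1)] with x hx q hxq hq
  by_contra hcon
  exact hx q ⟨hq, hcon⟩ hxq

/-- **(ML) near `z`.** -/
theorem Irr.ml_dir696 (h : Irr U T) {z : ℂ} {i : Fin k} {O : Set ℂ} (hO : IsOpen O)
    (hsub : ∀ q, dist q z = 1 → i ∈ Pal U q → q ∈ O) :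
    ∀ᶠ x in 𝓝 z, x ∉ U i → ∃ q ∈ O, dist x q = 1 ∧ i ∈ Pal U q ∧ ∀ w, dist w q = 1 → w ∉ U i := by
  filter_upwards [ml_near696 U hO hsub] with x hx hxU
  obtain ⟨q, hxq, hq, hfree⟩ := h.ml696 hxU
  exact ⟨q, hx q hxq hq, hxq, hq, hfree⟩

/-- `w + x - q` is the other centre of the line -/
theorem other_centre696 {w x q : ℂ} (hw : dist w q = 1) (hx : dist x q = 1) :
    dist w (w + x - q) = 1 ∧ dist x (w + x - q) = 1 := by
  constructor
  · rw [dist_eq_norm] at hx ⊢
    rw [← hx, ← norm_neg]; congr 1; ring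
  · rw [dist_eq_norm] at hw ⊢
    rw [← hw, ← norm_neg]; congr 1; ring

/-- two points near `z` are not antipodal on a circle with its centre near `z + m` -/
theorem not_anti696 {z m w x q : ℂ} (hm : ‖m‖ = 1) (hw : dist w z < 1 / 4) (hx : dist x z < 1 / 4)
    (hq : dist q (z + m) < 1 / 4) : w + x ≠ 2 * q := by
  intro h
  have h1 : 2 * m = (w - z) + (x - z) - 2 * (q - (z + m)) := by linear_combination -h
  have h2 : ‖2 * m‖ = 2 := by rw [norm_mul, hm]; norm_num
  have h3 : ‖(w - z) + (x - z) - 2 * (q - (z + m))‖ ≤ ‖w - z‖ + ‖x - z‖ + 2 * ‖q - (z + m)‖ := by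
    refine (norm_sub_le _ _).trans ?_
    have h4 : ‖2 * (q - (z + m))‖ = 2 * ‖q - (z + m)‖ := by rw [norm_mul]; norm_num
    rw [h4]
    linarith [norm_add_le (w - z) (x - z)]
  rw [dist_eq_norm] at hw hx hq
  rw [h1] at h2
  linarith

/-- **(LR)** Line rule at one side. -/
theorem Irr.lr696 (h : Irr U T) {z m : ℂ} {a b : Fin k} (hm : ‖m‖ = 1) (hT : T (z + m) ⊆ {a, b}) :
    ∃ ε > 0, ∀ w x q, dist w z < ε → dist x z < ε → dist q (z + m) < ε → w ≠ x → dist w q = 1 →
      dist x q = 1 → ¬ (a ∈ Pal U w ∧ b ∈ Pal U x) := by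
  obtain ⟨ε, hε, hd⟩ := Metric.eventually_nhds_iff.1 (h.nhd (z + m))
  refine ⟨min ε (1 / 4), by positivity, fun w x q hw hx hq hwx hwq hxq hab => ?_⟩
  have hT' : T q ⊆ {a, b} := (hd (lt_of_lt_of_le hq (min_le_left _ _))).trans hT
  have h4 := min_le_right ε (1 / 4)
  rcases h.lemmaB hT' (by rw [dist_comm]; exact hwq) (by rw [dist_comm]; exact hxq) hab.1 hab.2
    with h1 | h1
  · exact hwx h1.symm
  · exact not_anti696 hm (lt_of_lt_of_le hx h4) (lt_of_lt_of_le hw h4) (lt_of_lt_of_le hq h4) h1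

/-- **(LR)** Line rule for both centres of the line. -/
theorem Irr.lr_both696 (h : Irr U T) {z m : ℂ} {a b : Fin k} (hm : ‖m‖ = 1)
    (hT : T (z + m) ⊆ {a, b}) :
    ∃ ε > 0, ∀ w x q, dist w z < ε → dist x z < ε →
      (dist q (z + m) < ε ∨ dist q (z - m) < ε) → w ≠ x → dist w q = 1 →
      dist x q = 1 → ¬ (a ∈ Pal U w ∧ b ∈ Pal U x) := by
  obtain ⟨ε, hε, hd⟩ := h.lr696 hm hT
  refine ⟨ε / 3, by positivity, fun w x q hw hx hq hwx hwq hxq hab => ?_⟩
  rcases hq with hq | hq
  · exact hd w x q (by linarith) (by linarith) (by linarith) hwx hwq hxq hab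
  · obtain ⟨h1, h2⟩ := other_centre696 hwq hxq
    refine hd w x (w + x - q) (by linarith) (by linarith) ?_ hwx h1 h2 hab
    have h3 : w + x - q - (z + m) = (w - z) + (x - z) - (q - (z - m)) := by ring
    rw [dist_eq_norm] at hw hx hq ⊢
    rw [h3]
    have h4 := norm_sub_le ((w - z) + (x - z)) (q - (z - m))
    have h5 := norm_add_le (w - z) (x - z)
    linarith

/-- **(LR)**, three colours: a line with its centre of palette inside `{a, b, c}` which meets `U a`
and `U b` has its centre in `U c`, so it has no point of colour `c` -/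
theorem Irr.lr3_696 (h : Irr U T) {q w x : ℂ} {a b c : Fin k} (hT : T q ⊆ {a, b, c})
    (hw : dist w q = 1) (hx : dist x q = 1) (ha : w ∈ U a) (hb : x ∈ U b) :
    T q = {c} ∧ q ∈ U c ∧ ∀ y, dist y q = 1 → c ∉ Pal U y := by
  have h1 : T q ⊆ {c} := by
    intro j hj
    rcases hT hj with h2 | h2 | h2
    · subst h2; exact absurd (h.sub q hj) (h.mx.notMem' ha hw)
    · subst h2; exact absurd (h.sub q hj) (h.mx.notMem' hb hx)
    · exact h2
  have h2 : q ∈ U c := h.mem_of_single h1
  refine ⟨?_, h2, fun y hy hyc => h.mx.free c q h2 y hyc (by rw [dist_comm]; exact hy)⟩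
  obtain ⟨j, hj⟩ := h.ne q
  have h3 : j = c := h1 hj
  exact Subset.antisymm h1 (by rintro l rfl; exact h3 ▸ hj)

end Vale.Agent.P032.Six
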